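import Mathlib

namespace Vale.Agent.Lib.P102

open MeasureTheory

variable {Ω : Type*} [MeasurableSpace Ω]

/-- The `k`-fold correlation `μ(⋂ i, T^{-t i} (A i))` of an invertible bimeasurable map `T`
along integer times `t`. Here `T.toEquiv ^ n` is the `n`-th power (`n` an integer) of `T` in
the group of bijections of `Ω`, and the preimage of `A i` under it is `T^{-t i} (A i)`. -/
noncomputable def corr (μ : Measure Ω) (T : Ω ≃ᵐ Ω) {k : ℕ} (A : Fin k → Set Ω)
    (t : Fin k → ℤ) : ℝ :=
  μ.real (⋂ i, (fun x => (T.toEquiv ^ t i) x) ⁻¹' A i)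

/-- `T` is mixing of order `k`: for measurable `A 1, ..., A k` the correlation
`μ(⋂ i, T^{-t i} (A i))` tends to `∏ i, μ (A i)` as the minimal gap of the increasing integer
times `t 1 < ... < t k` tends to infinity. -/
def IsMixingOfOrder (μ : Measure Ω) (T : Ω ≃ᵐ Ω) (k : ℕ) : Prop :=
  ∀ A : Fin k → Set Ω, (∀ i, MeasurableSet (A i)) → ∀ ε : ℝ, 0 < ε →
    ∃ L : ℤ, ∀ t : Fin k → ℤ, (∀ i j, i < j → t i + L ≤ t j) →
      |corr μ T A t - ∏ i, μ.real (A i)| ≤ ε

/-- One-sided (upper) mixing of order `k`: asymptotically the correlation is at most the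
product of the measures. -/
def IsUpperMixingOfOrder (μ : Measure Ω) (T : Ω ≃ᵐ Ω) (k : ℕ) : Prop :=
  ∀ A : Fin k → Set Ω, (∀ i, MeasurableSet (A i)) → ∀ ε : ℝ, 0 < ε →
    ∃ L : ℤ, ∀ t : Fin k → ℤ, (∀ i j, i < j → t i + L ≤ t j) →
      corr μ T A t ≤ ∏ i, μ.real (A i) + ε

theorem measurable_zpow (T : Ω ≃ᵐ Ω) (n : ℤ) : Measurable (fun x => (T.toEquiv ^ n) x) := by
  have hnat : ∀ m : ℕ, Measurable (fun x => (T.toEquiv ^ m) x) := by
    intro m
    induction m with
    | zero => simpa using measurable_id'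
    | succ m ih =>
      have : (fun x => (T.toEquiv ^ (m + 1)) x) = (fun x => (T.toEquiv ^ m) x) ∘ T := by
        funext x
        simp [pow_succ, Equiv.Perm.mul_apply]
      rw [this]
      exact ih.comp T.measurable
  have hnat' : ∀ m : ℕ, Measurable (fun x => ((T.toEquiv⁻¹) ^ m) x) := by
    intro m
    induction m with
    | zero => simpa using measurable_id'
    | succ m ih =>
      have : (fun x => ((T.toEquiv⁻¹) ^ (m + 1)) x) = (fun x => ((T.toEquiv⁻¹) ^ m) x) ∘ T.symm := by
        funext x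
        simp [pow_succ, Equiv.Perm.mul_apply]
      rw [this]
      exact ih.comp T.symm.measurable
  cases n with
  | ofNat m => simpa using hnat m
  | negSucc m =>
    have := hnat' (m + 1)
    simpa [zpow_negSucc, inv_pow] using this

end Vale.Agent.Lib.P102
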