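import Mathlib
import Vale.Agent.Lib.P102.Defs

namespace Vale.Agent.Lib.P102

open MeasureTheory
open RealInnerProductSpace

variable {Ω : Type*} [MeasurableSpace Ω]

/-- almost orthogonal systems: a unit vector cannot correlate with many of them -/
theorem almost_orth {H : Type*} [NormedAddCommGroup H] [InnerProductSpace ℝ H] {ι : Type*}
    (S : Finset ι) (v : ι → H) (e : H) (δ ε : ℝ) (he : ‖e‖ ≤ 1) (hδ0 : 0 ≤ δ) (hε : 0 ≤ ε)
    (hv : ∀ i ∈ S, ‖v i‖ ≤ 1)
    (hδ : ∀ i ∈ S, ∀ j ∈ S, i ≠ j → |(⟪v i, v j⟫)| ≤ δ)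
    (hbad : ∀ i ∈ S, ε < |(⟪e, v i⟫)|) :
    (S.card : ℝ) * ε ^ 2 ≤ 1 + S.card * δ := by
  classical
  set s : ι → ℝ := fun i => if 0 ≤ ⟪e, v i⟫ then 1 else -1 with hs
  have hs1 : ∀ i, |s i| = 1 := by
    intro i
    simp only [hs]
    split_ifs <;> simp
  have hsabs : ∀ i, s i * ⟪e, v i⟫ = |(⟪e, v i⟫)| := by
    intro i
    simp only [hs]
    split_ifs with h
    · rw [one_mul, abs_of_nonneg h]
    · rw [abs_of_neg (not_le.1 h)]; ring
  set w : H := ∑ i ∈ S, s i • v i with hw
  have h1 : (S.card : ℝ) * ε ≤ ⟪e, w⟫ := by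
    rw [hw, inner_sum]
    have : ∀ i ∈ S, ε ≤ ⟪e, s i • v i⟫ := by
      intro i hi
      rw [inner_smul_right, hsabs]
      exact (hbad i hi).le
    calc (S.card : ℝ) * ε = ∑ _i ∈ S, ε := by simp
      _ ≤ _ := Finset.sum_le_sum this
  have h2 : ⟪e, w⟫ ≤ ‖w‖ := by
    calc ⟪e, w⟫ ≤ ‖e‖ * ‖w‖ := real_inner_le_norm e w
      _ ≤ 1 * ‖w‖ := by gcongr
      _ = ‖w‖ := one_mul _
  have h3 : ‖w‖ ^ 2 ≤ S.card + (S.card : ℝ) ^ 2 * δ := by
    rw [← real_inner_self_eq_norm_sq, hw, sum_inner]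
    have hterm : ∀ i ∈ S, ⟪s i • v i, ∑ j ∈ S, s j • v j⟫ ≤ 1 + S.card * δ := by
      intro i hi
      rw [inner_sum]
      have hb : ∀ j ∈ S, ⟪s i • v i, s j • v j⟫ ≤ (if j = i then 1 else 0) + δ := by
        intro j hj
        rw [inner_smul_left, inner_smul_right]
        simp only [conj_trivial]
        by_cases hji : j = i
        · subst hji
          rw [if_pos rfl, real_inner_self_eq_norm_sq]
          have h11 : s j * (s j * ‖v j‖ ^ 2) = (s j) ^ 2 * ‖v j‖ ^ 2 := by ring
          have h12 : (s j) ^ 2 = 1 := by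
            rw [← sq_abs, hs1]; norm_num
          rw [h11, h12, one_mul]
          have := hv j hj
          have h0 := norm_nonneg (v j)
          nlinarith
        · rw [if_neg hji, zero_add]
          have hij : i ≠ j := fun h => hji h.symm
          have := hδ i hi j hj hij
          calc s i * (s j * ⟪v i, v j⟫) ≤ |s i * (s j * ⟪v i, v j⟫)| := le_abs_self _
            _ = |(⟪v i, v j⟫)| := by rw [abs_mul, abs_mul, hs1, hs1]; ring
            _ ≤ δ := this
      calc ∑ j ∈ S, ⟪s i • v i, s j • v j⟫ ≤ ∑ j ∈ S, ((if j = i then (1:ℝ) else 0) + δ) :=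
            Finset.sum_le_sum hb
        _ = 1 + S.card * δ := by
            rw [Finset.sum_add_distrib, Finset.sum_ite_eq' S i]
            simp [hi]
    calc ∑ i ∈ S, ⟪s i • v i, ∑ j ∈ S, s j • v j⟫ ≤ ∑ _i ∈ S, (1 + S.card * δ) :=
          Finset.sum_le_sum hterm
      _ = S.card + (S.card : ℝ) ^ 2 * δ := by
          rw [Finset.sum_const, nsmul_eq_mul]; ring
  rcases Nat.eq_zero_or_pos S.card with h0 | hpos
  · rw [h0]; simp
  · have hc : (0 : ℝ) < S.card := by exact_mod_cast hpos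
    have h4 : ((S.card : ℝ) * ε) ^ 2 ≤ ‖w‖ ^ 2 := by
      have h5 : (S.card : ℝ) * ε ≤ ‖w‖ := h1.trans h2
      have h6 : 0 ≤ (S.card : ℝ) * ε := by positivity
      exact pow_le_pow_left₀ h6 h5 2
    have h7 : (S.card : ℝ) * ((S.card : ℝ) * ε ^ 2) ≤ (S.card : ℝ) * (1 + S.card * δ) := by
      calc (S.card : ℝ) * ((S.card : ℝ) * ε ^ 2) = ((S.card : ℝ) * ε) ^ 2 := by ring
        _ ≤ ‖w‖ ^ 2 := h4
        _ ≤ S.card + (S.card : ℝ) ^ 2 * δ := h3
        _ = (S.card : ℝ) * (1 + S.card * δ) := by ring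
    exact le_of_mul_le_mul_left h7 hc

/-- preimage of a set under the `n`-th power of `T` -/
def pre (T : Ω ≃ᵐ Ω) (n : ℤ) (C : Set Ω) : Set Ω := (fun x => (T.toEquiv ^ n) x) ⁻¹' C

theorem pre_def (T : Ω ≃ᵐ Ω) (n : ℤ) (C : Set Ω) :
    pre T n C = (fun x => (T.toEquiv ^ n) x) ⁻¹' C := rfl

theorem measurableSet_pre (T : Ω ≃ᵐ Ω) (n : ℤ) {C : Set Ω} (hC : MeasurableSet C) :
    MeasurableSet (pre T n C) := measurable_zpow T n hC

theorem pre_zero (T : Ω ≃ᵐ Ω) (C : Set Ω) : pre T 0 C = C := by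
  ext x
  simp [pre]

theorem pre_add (T : Ω ≃ᵐ Ω) (m n : ℤ) (C : Set Ω) : pre T (n + m) C = pre T m (pre T n C) := by
  ext x
  simp [pre, zpow_add, Equiv.Perm.mul_apply]

theorem pre_inter (T : Ω ≃ᵐ Ω) (n : ℤ) (C D : Set Ω) :
    pre T n (C ∩ D) = pre T n C ∩ pre T n D := rfl

theorem measurePreserving_zpow {μ : Measure Ω} (T : Ω ≃ᵐ Ω) (hT : MeasurePreserving T μ μ)
    (n : ℤ) : MeasurePreserving (fun x => (T.toEquiv ^ n) x) μ μ := by
  have hnat : ∀ m : ℕ, MeasurePreserving (fun x => (T.toEquiv ^ m) x) μ μ := by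
    intro m
    induction m with
    | zero =>
      have h0 : MeasurePreserving (fun x : Ω => x) μ μ := MeasurePreserving.id μ
      simpa using h0
    | succ m ih =>
      have : (fun x => (T.toEquiv ^ (m + 1)) x) = (fun x => (T.toEquiv ^ m) x) ∘ T := by
        funext x
        simp [pow_succ, Equiv.Perm.mul_apply]
      rw [this]
      exact ih.comp hT
  have hsymm : MeasurePreserving T.symm μ μ := hT.symm T
  have hnat' : ∀ m : ℕ, MeasurePreserving (fun x => ((T.toEquiv⁻¹) ^ m) x) μ μ := by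
    intro m
    induction m with
    | zero =>
      have h0 : MeasurePreserving (fun x : Ω => x) μ μ := MeasurePreserving.id μ
      simpa using h0
    | succ m ih =>
      have : (fun x => ((T.toEquiv⁻¹) ^ (m + 1)) x) = (fun x => ((T.toEquiv⁻¹) ^ m) x) ∘ T.symm := by
        funext x
        simp [pow_succ, Equiv.Perm.mul_apply]
      rw [this]
      exact ih.comp hsymm
  cases n with
  | ofNat m => simpa using hnat m
  | negSucc m =>
    have := hnat' (m + 1)
    simpa [zpow_negSucc, inv_pow] using this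

theorem measureReal_pre {μ : Measure Ω} (T : Ω ≃ᵐ Ω) (hT : MeasurePreserving T μ μ)
    (n : ℤ) {C : Set Ω} (hC : MeasurableSet C) : μ.real (pre T n C) = μ.real C := by
  have h := (measurePreserving_zpow T hT n).measure_preimage hC.nullMeasurableSet
  unfold Measure.real pre
  rw [h]

/-- the indicator of a measurable set as an element of `L²` -/
noncomputable def ind (μ : Measure Ω) [IsFiniteMeasure μ] (s : Set Ω) (hs : MeasurableSet s) :
    Lp ℝ 2 μ :=
  indicatorConstLp 2 hs (measure_ne_top μ s) (1 : ℝ)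

theorem inner_ind (μ : Measure Ω) [IsFiniteMeasure μ] {s t : Set Ω} (hs : MeasurableSet s)
    (ht : MeasurableSet t) : ⟪ind μ s hs, ind μ t ht⟫ = μ.real (s ∩ t) :=
  L2.real_inner_indicatorConstLp_one_indicatorConstLp_one hs ht _ _

theorem norm_le_one_of_inner_self_le {H : Type*} [NormedAddCommGroup H] [InnerProductSpace ℝ H]
    (v : H) (h : ⟪v, v⟫ ≤ 1) : ‖v‖ ≤ 1 := by
  rw [real_inner_self_eq_norm_sq] at h
  have h0 := norm_nonneg v
  nlinarith

theorem sep_card_le (μ : Measure Ω) [IsProbabilityMeasure μ] (T : Ω ≃ᵐ Ω)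
    (hT : MeasurePreserving T μ μ) (C : Set Ω) (hC : MeasurableSet C) (δ ε : ℝ) (hδ : 0 ≤ δ)
    (hε : 0 < ε) (L : ℤ)
    (hL : ∀ j : ℤ, L ≤ j → |μ.real (C ∩ pre T j C) - μ.real C * μ.real C| ≤ δ)
    (E : Set Ω) (hE : MeasurableSet E) (S : Finset ℤ)
    (hsep : ∀ m ∈ S, ∀ m' ∈ S, m ≠ m' → L ≤ m' - m ∨ L ≤ m - m')
    (hbad : ∀ m ∈ S, ε < |μ.real (E ∩ pre T m C) - μ.real E * μ.real C|) :
    (S.card : ℝ) * ε ^ 2 ≤ 1 + S.card * δ := by
  set c : ℝ := μ.real C with hc
  have hc0 : 0 ≤ c := measureReal_nonneg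
  have hc1 : c ≤ 1 := measureReal_le_one
  have hB : ∀ m : ℤ, MeasurableSet (pre T m C) := fun m => measurableSet_pre T m hC
  have hBc : ∀ m : ℤ, μ.real (pre T m C) = c := fun m => measureReal_pre T hT m hC
  set v : ℤ → Lp ℝ 2 μ := fun m => ind μ (pre T m C) (hB m) - c • ind μ Set.univ MeasurableSet.univ
    with hv
  set e : Lp ℝ 2 μ := ind μ E hE with he
  have hvv : ∀ m m' : ℤ, ⟪v m, v m'⟫ = μ.real (pre T m C ∩ pre T m' C) - c * c := by
    intro m m'
    simp only [hv]
    rw [inner_sub_left, inner_sub_right, inner_sub_right, inner_smul_left, inner_smul_left,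
      inner_smul_right, inner_smul_right, inner_ind, inner_ind, inner_ind, inner_ind]
    simp only [Set.inter_univ, Set.univ_inter, conj_trivial, hBc]
    have hu : μ.real (Set.univ : Set Ω) = 1 := by simp
    rw [hu]
    ring
  have hev : ∀ m : ℤ, ⟪e, v m⟫ = μ.real (E ∩ pre T m C) - μ.real E * c := by
    intro m
    simp only [hv, he]
    rw [inner_sub_right, inner_smul_right, inner_ind, inner_ind]
    simp only [Set.inter_univ]
    ring
  have hinter : ∀ m j : ℤ, μ.real (pre T m C ∩ pre T (j + m) C) = μ.real (C ∩ pre T j C) := by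
    intro m j
    rw [pre_add, ← pre_inter]
    exact measureReal_pre T hT m (hC.inter (hB j))
  refine almost_orth S v e δ ε ?_ hδ hε.le ?_ ?_ ?_
  · apply norm_le_one_of_inner_self_le
    rw [he, inner_ind, Set.inter_self]
    exact measureReal_le_one
  · intro m _
    apply norm_le_one_of_inner_self_le
    rw [hvv, Set.inter_self, hBc]
    nlinarith
  · intro m hm m' hm' hne
    rw [hvv]
    rcases hsep m hm m' hm' hne with h | h
    · have := hinter m (m' - m)
      rw [sub_add_cancel] at this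
      rw [this]
      exact hL _ h
    · have := hinter m' (m - m')
      rw [sub_add_cancel] at this
      rw [Set.inter_comm, this]
      exact hL _ h
  · intro m hm
    rw [hev]
    exact hbad m hm

theorem exceptional_card_le (μ : Measure Ω) [IsProbabilityMeasure μ] (T : Ω ≃ᵐ Ω)
    (hT : MeasurePreserving T μ μ) (hmix : IsMixingOfOrder μ T 2) (C : Set Ω)
    (hC : MeasurableSet C) (ε : ℝ) (hε : 0 < ε) :
    ∃ K : ℕ, ∀ E : Set Ω, MeasurableSet E → ∀ S : Finset ℤ,
      (∀ m ∈ S, ε < |μ.real (E ∩ pre T m C) - μ.real E * μ.real C|) → S.card ≤ K := by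
  classical
  have hδ : 0 < ε ^ 2 / 2 := by positivity
  obtain ⟨L₀, hL₀⟩ := hmix ![C, C] (by
    intro i
    fin_cases i <;> simpa using hC) (ε ^ 2 / 2) hδ
  have hL₀' : ∀ j : ℤ, L₀ ≤ j → |μ.real (C ∩ pre T j C) - μ.real C * μ.real C| ≤ ε ^ 2 / 2 := by
    intro j hj
    have h := hL₀ ![0, j] (by
      intro a b hab
      fin_cases a <;> fin_cases b <;> simp_all)
    have hset : (⋂ i : Fin 2, (fun x => (T.toEquiv ^ (![0, j] i)) x) ⁻¹' (![C, C] i))
        = C ∩ pre T j C := by
      ext x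
      simp [Set.mem_iInter, Fin.forall_fin_two, pre]
    unfold corr at h
    rw [hset, Fin.prod_univ_two] at h
    simpa using h
  set L : ℤ := max L₀ 1 with hLdef
  have hL1 : 1 ≤ L := le_max_right _ _
  have hLpos : 0 < L := by omega
  have hL : ∀ j : ℤ, L ≤ j → |μ.real (C ∩ pre T j C) - μ.real C * μ.real C| ≤ ε ^ 2 / 2 :=
    fun j hj => hL₀' j ((le_max_left _ _).trans hj)
  refine ⟨⌊2 / ε ^ 2⌋₊ * L.toNat, fun E hE S hS => ?_⟩
  have hfib : ∀ a ∈ S.image (fun m : ℤ => m % L),
      (S.filter fun m => m % L = a).card ≤ ⌊2 / ε ^ 2⌋₊ := by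
    intro a _
    set S' := S.filter fun m => m % L = a with hS'
    have hsep : ∀ m ∈ S', ∀ m' ∈ S', m ≠ m' → L ≤ m' - m ∨ L ≤ m - m' := by
      intro m hm m' hm' hne
      have h1 : m % L = a := (Finset.mem_filter.1 hm).2
      have h2 : m' % L = a := (Finset.mem_filter.1 hm').2
      have hdvd : L ∣ m' - m := by
        apply Int.dvd_of_emod_eq_zero
        rw [← Int.emod_eq_emod_iff_emod_sub_eq_zero, h1, h2]
      rcases lt_trichotomy m m' with h | h | h
      · left
        exact Int.le_of_dvd (by omega) hdvd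
      · exact absurd h hne
      · right
        have hdvd' : L ∣ m - m' := by
          have := dvd_neg.2 hdvd
          simpa using this
        exact Int.le_of_dvd (by omega) hdvd'
    have hbad : ∀ m ∈ S', ε < |μ.real (E ∩ pre T m C) - μ.real E * μ.real C| :=
      fun m hm => hS m (Finset.mem_filter.1 hm).1
    have hmain := sep_card_le μ T hT C hC (ε ^ 2 / 2) ε hδ.le hε L hL E hE S' hsep hbad
    have hle : (S'.card : ℝ) ≤ 2 / ε ^ 2 := by
      rw [le_div_iff₀ (by positivity)]
      nlinarith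
    exact Nat.le_floor hle
  have h1 := Finset.card_le_mul_card_image S ⌊2 / ε ^ 2⌋₊ hfib
  have h2 : (S.image (fun m : ℤ => m % L)).card ≤ L.toNat := by
    have hsub : S.image (fun m : ℤ => m % L) ⊆ Finset.Ico 0 L := by
      intro a ha
      obtain ⟨m, _, rfl⟩ := Finset.mem_image.1 ha
      rw [Finset.mem_Ico]
      exact ⟨Int.emod_nonneg m hLpos.ne', Int.emod_lt_of_pos m hLpos⟩
    have := Finset.card_le_card hsub
    simpa using this
  calc S.card ≤ ⌊2 / ε ^ 2⌋₊ * (S.image (fun m : ℤ => m % L)).card := h1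
    _ ≤ ⌊2 / ε ^ 2⌋₊ * L.toNat := Nat.mul_le_mul_left _ h2

theorem finite_of_card_bound {α : Type*} (X : Set α) (K : ℕ)
    (h : ∀ S : Finset α, (↑S ⊆ X) → S.card ≤ K) : X.Finite := by
  by_contra hinf
  obtain ⟨t, ht, hcard⟩ := Set.Infinite.exists_subset_card_eq hinf (K + 1)
  have := h t ht
  omega


/-- the intersection of the first `n` of the sets `T^{-t j} (A j)` -/
def part (T : Ω ≃ᵐ Ω) {k : ℕ} (A : Fin k → Set Ω) (t : Fin k → ℤ) (n : ℕ) : Set Ω :=
  {x | ∀ j : Fin k, j.val < n → x ∈ pre T (t j) (A j)}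

theorem measurableSet_part (T : Ω ≃ᵐ Ω) {k : ℕ} (A : Fin k → Set Ω)
    (hA : ∀ i, MeasurableSet (A i)) (t : Fin k → ℤ) (n : ℕ) : MeasurableSet (part T A t n) := by
  have : part T A t n = ⋂ j : Fin k, ⋂ (_ : j.val < n), pre T (t j) (A j) := by
    ext x
    simp [part]
  rw [this]
  exact MeasurableSet.iInter fun j => MeasurableSet.iInter fun _ => measurableSet_pre T _ (hA j)

theorem part_zero (T : Ω ≃ᵐ Ω) {k : ℕ} (A : Fin k → Set Ω) (t : Fin k → ℤ) :
    part T A t 0 = Set.univ := by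
  ext x
  simp [part]

theorem part_succ (T : Ω ≃ᵐ Ω) {k : ℕ} (A : Fin k → Set Ω) (t : Fin k → ℤ) (n : ℕ)
    (hn : n < k) :
    part T A t (n + 1) = part T A t n ∩ pre T (t ⟨n, hn⟩) (A ⟨n, hn⟩) := by
  ext x
  simp only [part, Set.mem_ofPred_eq, Set.mem_inter_iff]
  constructor
  · intro h
    exact ⟨fun j hj => h j (by omega), h ⟨n, hn⟩ (by simp)⟩
  · rintro ⟨h1, h2⟩ j hj
    by_cases hjn : j.val < n
    · exact h1 j hjn
    · have : j = ⟨n, hn⟩ := by
        apply Fin.ext
        simp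
        omega
      rw [this]
      exact h2

theorem part_full (T : Ω ≃ᵐ Ω) {k : ℕ} (A : Fin k → Set Ω) (t : Fin k → ℤ) :
    part T A t k = ⋂ i, (fun x => (T.toEquiv ^ t i) x) ⁻¹' A i := by
  ext x
  simp [part, pre]

theorem part_congr (T : Ω ≃ᵐ Ω) {k : ℕ} (A : Fin k → Set Ω) (t t' : Fin k → ℤ) (n : ℕ)
    (h : ∀ j : Fin k, j.val < n → t j = t' j) : part T A t n = part T A t' n := by
  ext x
  simp only [part, Set.mem_ofPred_eq]
  constructor
  · intro hx j hj
    rw [← h j hj]
    exact hx j hj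
  · intro hx j hj
    rw [h j hj]
    exact hx j hj

/-- the product of the first `n` of the numbers `a j` -/
noncomputable def pprod {k : ℕ} (a : Fin k → ℝ) (n : ℕ) : ℝ :=
  ∏ j : Fin k, if j.val < n then a j else 1

theorem pprod_zero {k : ℕ} (a : Fin k → ℝ) : pprod a 0 = 1 := by
  simp [pprod]

theorem pprod_succ {k : ℕ} (a : Fin k → ℝ) (n : ℕ) (hn : n < k) :
    pprod a (n + 1) = pprod a n * a ⟨n, hn⟩ := by
  unfold pprod
  have h1 : ∀ j : Fin k, (if j.val < n + 1 then a j else 1)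
      = (if j.val < n then a j else 1) * (if j = ⟨n, hn⟩ then a j else 1) := by
    intro j
    by_cases hjn : j.val < n
    · have hne : j ≠ ⟨n, hn⟩ := by
        intro h
        rw [h] at hjn
        simp at hjn
      rw [if_pos hjn, if_pos (by omega), if_neg hne, mul_one]
    · by_cases hje : j = ⟨n, hn⟩
      · rw [if_neg hjn, if_pos hje, one_mul, if_pos]
        rw [hje]
        simp
      · have hlt : ¬ j.val < n + 1 := by
          intro h
          apply hje
          apply Fin.ext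
          simp
          omega
        rw [if_neg hjn, if_neg hje, if_neg hlt, one_mul]
  rw [Finset.prod_congr rfl (fun j _ => h1 j), Finset.prod_mul_distrib]
  congr 1
  rw [Finset.prod_ite_eq' Finset.univ (⟨n, hn⟩ : Fin k) a]
  simp

theorem pprod_full {k : ℕ} (a : Fin k → ℝ) : pprod a k = ∏ j, a j := by
  unfold pprod
  apply Finset.prod_congr rfl
  intro j _
  rw [if_pos j.isLt]

theorem sparse_exceptions (μ : Measure Ω) [IsProbabilityMeasure μ] (T : Ω ≃ᵐ Ω)
    (hT : MeasurePreserving T μ μ) (hmix : IsMixingOfOrder μ T 2) (k : ℕ) (A : Fin k → Set Ω)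
    (hA : ∀ i, MeasurableSet (A i)) (ε : ℝ) (hε : 0 < ε) :
    ∃ (K : ℕ) (Exc : Fin k → (Fin k → ℤ) → Finset ℤ),
      (∀ i t, (Exc i t).card ≤ K) ∧
      (∀ i t t', (∀ j, j < i → t j = t' j) → Exc i t = Exc i t') ∧
      (∀ i t, i.val = 0 → Exc i t = ∅) ∧
      ∀ t : Fin k → ℤ, (∀ i, t i ∉ Exc i t) →
        |corr μ T A t - ∏ i, μ.real (A i)| ≤ ε := by
  classical
  set ε' : ℝ := ε / (k + 1) with hε'def
  have hk1 : (0 : ℝ) < (k : ℝ) + 1 := by positivity
  have hε' : 0 < ε' := div_pos hε hk1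
  have hex := fun i : Fin k => exceptional_card_le μ T hT hmix (A i) (hA i) ε' hε'
  choose Kf hKf using hex
  set X : Fin k → (Fin k → ℤ) → Set ℤ := fun i t =>
    {m : ℤ | ε' < |μ.real (part T A t i.val ∩ pre T m (A i))
      - μ.real (part T A t i.val) * μ.real (A i)|} with hX
  have hXbound : ∀ i t, ∀ S : Finset ℤ, (↑S ⊆ X i t) → S.card ≤ Kf i := by
    intro i t S hS
    exact hKf i (part T A t i.val) (measurableSet_part T A hA t i.val) S (fun m hm => hS hm)
  have hXfin : ∀ i t, (X i t).Finite := fun i t => finite_of_card_bound _ (Kf i) (hXbound i t)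
  refine ⟨∑ i, Kf i, fun i t => (hXfin i t).toFinset, ?_, ?_, ?_, ?_⟩
  · intro i t
    have h1 := hXbound i t (hXfin i t).toFinset (by simp)
    exact h1.trans (Finset.single_le_sum (f := Kf) (fun _ _ => Nat.zero_le _) (Finset.mem_univ i))
  · intro i t t' h
    have hpart : part T A t i.val = part T A t' i.val :=
      part_congr T A t t' i.val (fun j hj => h j (Fin.lt_def.2 hj))
    have hXeq : X i t = X i t' := by
      simp only [hX]
      rw [hpart]
    ext m
    simp only [Set.Finite.mem_toFinset]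
    rw [hXeq]
  · intro i t hi
    ext m
    simp only [Set.Finite.mem_toFinset, hX, Set.mem_ofPred_eq, Finset.notMem_empty, iff_false,
      not_lt]
    rw [hi, part_zero, Set.univ_inter, measureReal_pre T hT m (hA i)]
    simp [hε'.le]
  · intro t ht
    have hstep : ∀ n : ℕ, n ≤ k →
        |μ.real (part T A t n) - pprod (fun j => μ.real (A j)) n| ≤ n * ε' := by
      intro n
      induction n with
      | zero =>
        intro _
        rw [part_zero, pprod_zero]
        simp
      | succ n ih =>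
        intro hn
        have hn' : n < k := by omega
        have ihn := ih (by omega)
        rw [part_succ T A t n hn', pprod_succ _ n hn']
        have hnot := ht ⟨n, hn'⟩
        simp only [Set.Finite.mem_toFinset, hX, Set.mem_ofPred_eq, not_lt] at hnot
        set a : ℝ := μ.real (A ⟨n, hn'⟩) with ha
        have ha0 : 0 ≤ a := measureReal_nonneg
        have ha1 : a ≤ 1 := measureReal_le_one
        set P : ℝ := μ.real (part T A t n) with hP
        set Q : ℝ := pprod (fun j => μ.real (A j)) n with hQ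
        set R : ℝ := μ.real (part T A t n ∩ pre T (t ⟨n, hn'⟩) (A ⟨n, hn'⟩)) with hR
        have h1 : |R - Q * a| ≤ |R - P * a| + |P - Q| * a := by
          have : R - Q * a = (R - P * a) + (P - Q) * a := by ring
          rw [this]
          calc |(R - P * a) + (P - Q) * a| ≤ |R - P * a| + |(P - Q) * a| := abs_add_le _ _
            _ = |R - P * a| + |P - Q| * a := by rw [abs_mul, abs_of_nonneg ha0]
        have h2 : |P - Q| * a ≤ n * ε' := by
          calc |P - Q| * a ≤ |P - Q| * 1 := by gcongr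
            _ = |P - Q| := mul_one _
            _ ≤ n * ε' := ihn
        push_cast
        linarith
    have hfin := hstep k le_rfl
    rw [part_full, pprod_full] at hfin
    unfold corr
    refine hfin.trans ?_
    rw [hε'def]
    rw [mul_div_assoc']
    rw [div_le_iff₀ hk1]
    nlinarith

end Vale.Agent.Lib.P102
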